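import Vale.Agent.P072.Dyn

namespace Vale.Agent.Results.P072.Permanence

open Vale.Agent.P072

theorem result : ∀ (d : ℕ) (C : Finset (Fin d → ℕ)) (R : Finset ((Fin d → ℕ) × (Fin d → ℕ))),
    (∀ ρ ∈ R, ρ.1 ∈ C ∧ ρ.2 ∈ C ∧ ρ.1 ≠ ρ.2) → WeaklyReversible R →
    ∀ k : (Fin d → ℕ) × (Fin d → ℕ) → ℝ, (∀ ρ ∈ R, 0 < k ρ) →
    ∀ c : Fin d → ℝ, (∀ i, 0 < c i) →
      Permanent (massAction R k) (posClass R c) :=
  fun _ _ _ _ hR _ hk c hc => permanent hR hk c hc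

end Vale.Agent.Results.P072.Permanence
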