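import Vale.Agent.P072.TDyn

namespace Vale.Agent.Results.P072.TimeDep

open Vale.Agent.P072

theorem result : ∀ (d : ℕ) (C : Finset (Fin d → ℕ)) (R : Finset ((Fin d → ℕ) × (Fin d → ℕ))),
    (∀ ρ ∈ R, ρ.1 ∈ C ∧ ρ.2 ∈ C ∧ ρ.1 ≠ ρ.2) → WeaklyReversible R →
    ∀ c : Fin d → ℝ, (∀ i, 0 < c i) →
      (∀ k : (Fin d → ℕ) × (Fin d → ℕ) → ℝ, (∀ ρ ∈ R, 0 < k ρ) →
        Permanent (massAction R k) (posClass R c)) ∧
      ∀ ε : ℝ, 0 < ε → ∃ K : Set (Fin d → ℝ), IsCompact K ∧ K ⊆ posClass R c ∧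
        ∀ k : ℝ → (Fin d → ℕ) × (Fin d → ℕ) → ℝ, Admissible R ε k →
          PermanentIn (fun t => massAction R (k t)) (posClass R c) K :=
  fun _ _ _ _ hR c hc => ⟨fun _ hk => permanent hR hk c hc, fun _ hε => permanentIn hR hε c hc⟩

end Vale.Agent.Results.P072.TimeDep
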